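import Vale.Agent.P333.H705.GrDefs

set_option autoImplicit false

/-!
P333: checks of the steps of the greedy algorithm by computation, also of all its possible steps.
-/

namespace Vale.Agent.P333.H984.Chk

/-! ### Boolean checks -/

/-- is the first list a prefix of the second one -/
def isPref : List ℕ → List ℕ → Bool
  | [], _ => true
  | _ :: _, [] => false
  | a :: x, b :: y => Nat.beq a b && isPref x y

theorem isPref_iff : ∀ x y : List ℕ, isPref x y = true ↔ x <+: y
  | [], y => by simp [isPref]
  | a :: x, [] => by simp [isPref]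
  | a :: x, b :: y => by
      have ih := isPref_iff x y
      simp only [isPref, Bool.and_eq_true, Nat.beq_eq, List.cons_prefix_cons, ih]

/-- no suffix of the list (of length `n`) longer than `k` is a prefix of `w` -/
def noOv (k : ℕ) (w : List ℕ) : List ℕ → ℕ → Bool
  | [], _ => true
  | a :: z, n => Nat.ble n k || (not (isPref (a :: z) w) && noOv k w z (n - 1))

theorem noOv_spec (k : ℕ) (w : List ℕ) : ∀ (z : List ℕ) (n : ℕ), n = z.length →
    noOv k w z n = true → ∀ u : List ℕ, u <:+ z → u <+: w → u.length ≤ k := by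
  intro z
  induction z with
  | nil =>
      intro n _ _ u hu _
      have : u = [] := List.suffix_nil.1 hu
      subst this
      simp
  | cons a z ih =>
      intro n hn h u hu hw
      simp only [noOv, Bool.or_eq_true, Bool.and_eq_true] at h
      rcases h with h | ⟨h1, h2⟩
      · have h3 : n ≤ k := Nat.le_of_ble_eq_true h
        have h4 := hu.length_le
        omega
      · rcases List.suffix_cons_iff.1 hu with h3 | h3
        · subst h3
          have h5 := (isPref_iff _ _).2 hw
          rw [h5] at h1
          simp at h1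
        · refine ih (n - 1) ?_ h2 u h3 hw
          simp at hn
          omega

/-- is `s` a substring of the second list -/
def isInf (s : List ℕ) : List ℕ → Bool
  | [] => isPref s []
  | a :: t => isPref s (a :: t) || isInf s t

theorem isInf_iff (s : List ℕ) : ∀ t : List ℕ, isInf s t = true ↔ s <:+: t
  | [] => by
      rw [isInf, isPref_iff]
      simp
  | a :: t => by
      have ih := isInf_iff s t
      rw [isInf, Bool.or_eq_true, isPref_iff, ih, List.infix_cons_iff]

/-- all overlaps of distinct members are at most `k` -/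
def good (F : List (List ℕ)) (k : ℕ) : Bool :=
  F.all fun z => F.all fun w => (isPref z w && isPref w z) || noOv k w z z.length

theorem good_spec {F : List (List ℕ)} {k : ℕ} (h : good F k = true) {z w : List ℕ} (hz : z ∈ F)
    (hw : w ∈ F) (hne : z ≠ w) {u : List ℕ} (h1 : u <:+ z) (h2 : u <+: w) : u.length ≤ k := by
  unfold good at h
  rw [List.all_eq_true] at h
  have h3 := h z hz
  rw [List.all_eq_true] at h3
  have h4 := h3 w hw
  rw [Bool.or_eq_true, Bool.and_eq_true, isPref_iff, isPref_iff] at h4
  rcases h4 with ⟨h5, h6⟩ | h5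
  · exact absurd (h5.eq_of_length (le_antisymm h5.length_le h6.length_le)) hne
  · exact noOv_spec k w z _ rfl h5 u h1 h2

/-- no member is a substring of another member -/
def free (F : List (List ℕ)) : Bool :=
  F.all fun z => F.all fun w => (isPref z w && isPref w z) || not (isInf z w)

theorem free_spec {F : List (List ℕ)} (h : free F = true) {z w : List ℕ} (hz : z ∈ F)
    (hw : w ∈ F) (h1 : z <:+: w) : z = w := by
  unfold free at h
  rw [List.all_eq_true] at h
  have h3 := h z hz
  rw [List.all_eq_true] at h3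
  have h4 := h3 w hw
  rw [Bool.or_eq_true, Bool.and_eq_true, isPref_iff, isPref_iff] at h4
  rcases h4 with ⟨h5, h6⟩ | h5
  · exact h5.eq_of_length (le_antisymm h5.length_le h6.length_le)
  · rw [(isInf_iff z w).2 h1] at h5
    simp at h5

theorem step_of {F F' : List (List ℕ)} (x y m : List ℕ) (R : List (List ℕ)) (k : ℕ)
    (hp : F.Perm (x :: y :: R)) (hnd : (x :: y :: R).Nodup)
    (hky : k ≤ y.length) (hk : x.drop (x.length - k) = y.take k)
    (hg : good (x :: y :: R) k = true) (hm : x.take (x.length - k) ++ y = m)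
    (hF : F' = m :: R) : Greedy.Step F F' := by
  have key : ∀ z w : List ℕ, z ∈ x :: y :: R → w ∈ x :: y :: R → z ≠ w → ∀ l : ℕ,
      Greedy.IsOverlap z w l → l ≤ k := by
    intro z w hz hw hne l hl
    obtain ⟨u, hu, h1, h2⟩ := hl.1
    rw [← hu]
    exact good_spec hg hz hw hne h1 h2
  have hxy : x ≠ y := by
    intro h
    rw [List.nodup_cons] at hnd
    exact hnd.1 (by rw [h]; exact List.mem_cons_self)
  refine ⟨x, y, R, k, hp, ⟨⟨y.take k, ?_, ?_, ?_⟩, ?_⟩, ?_, ?_⟩
  · rw [List.length_take]
    omega
  · rw [← hk]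
    exact List.drop_suffix _ _
  · exact List.take_prefix _ _
  · intro l hl
    obtain ⟨u, hu, h1, h2⟩ := hl
    rw [← hu]
    exact good_spec hg List.mem_cons_self (List.mem_cons_of_mem _ List.mem_cons_self) hxy h1 h2
  · intro z w R' l hp' hl
    have hq : (z :: w :: R').Perm (x :: y :: R) := hp'.symm.trans hp
    have hnd' : (z :: w :: R').Nodup := hq.nodup_iff.2 hnd
    refine key z w (hq.mem_iff.1 List.mem_cons_self)
      (hq.mem_iff.1 (List.mem_cons_of_mem _ List.mem_cons_self)) ?_ l hl
    intro h
    rw [List.nodup_cons] at hnd'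
    exact hnd'.1 (by rw [h]; exact List.mem_cons_self)
  · rw [hF, hm]

/-! ### All possible steps -/

/-- all overlaps of distinct members, except that of `x` and `y`, are less than `k` -/
def goodU (F : List (List ℕ)) (x y : List ℕ) (k : ℕ) : Bool :=
  F.all fun z => F.all fun w => (isPref z w && isPref w z) ||
    ((isPref z x && isPref x z) && (isPref w y && isPref y w)) || noOv (k - 1) w z z.length

theorem eq_of_isPref {z w : List ℕ} (h : (isPref z w && isPref w z) = true) : z = w := by
  rw [Bool.and_eq_true, isPref_iff, isPref_iff] at h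
  exact h.1.eq_of_length (le_antisymm h.1.length_le h.2.length_le)

theorem goodU_spec {F : List (List ℕ)} {x y : List ℕ} {k : ℕ} (h : goodU F x y k = true)
    {z w : List ℕ} (hz : z ∈ F) (hw : w ∈ F) (hne : z ≠ w) (hxy : ¬ (z = x ∧ w = y))
    {u : List ℕ} (h1 : u <:+ z) (h2 : u <+: w) : u.length ≤ k - 1 := by
  unfold goodU at h
  rw [List.all_eq_true] at h
  have h3 := h z hz
  rw [List.all_eq_true] at h3
  have h4 := h3 w hw
  rw [Bool.or_eq_true, Bool.or_eq_true] at h4
  rcases h4 with (h5 | h5) | h5
  · exact absurd (eq_of_isPref h5) hne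
  · rw [Bool.and_eq_true] at h5
    exact absurd ⟨eq_of_isPref h5.1, eq_of_isPref h5.2⟩ hxy
  · exact noOv_spec (k - 1) w z _ rfl h5 u h1 h2

theorem step_unique {x y m : List ℕ} {R : List (List ℕ)} {k : ℕ} (hk1 : 1 ≤ k)
    (hnd : (x :: y :: R).Nodup) (hky : k ≤ y.length) (hk : x.drop (x.length - k) = y.take k)
    (hxy : noOv k y x x.length = true) (hg : goodU (x :: y :: R) x y k = true)
    (hm : x.take (x.length - k) ++ y = m) {F F' : List (List ℕ)} (hF : F.Perm (x :: y :: R))
    (h : Greedy.Step F F') : F'.Perm (m :: R) := by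
  obtain ⟨x', y', R', k', hp, hov, hmax, rfl⟩ := h
  have hk0 : Greedy.IsOverlap x y k := by
    refine ⟨⟨y.take k, ?_, ?_, ?_⟩, ?_⟩
    · rw [List.length_take]
      omega
    · rw [← hk]
      exact List.drop_suffix _ _
    · exact List.take_prefix _ _
    · intro l hl
      obtain ⟨u, hu, h1, h2⟩ := hl
      rw [← hu]
      exact noOv_spec k y x _ rfl hxy u h1 h2
  have hle : k ≤ k' := hmax x y R k hF hk0
  have hq : (x' :: y' :: R').Perm (x :: y :: R) := hp.symm.trans hF
  have hnd' : (x' :: y' :: R').Nodup := hq.nodup_iff.2 hnd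
  have hne : x' ≠ y' := by
    intro h
    rw [List.nodup_cons] at hnd'
    exact hnd'.1 (by rw [h]; exact List.mem_cons_self)
  have heq : x' = x ∧ y' = y := by
    by_contra hc
    obtain ⟨u, hu, h1, h2⟩ := hov.1
    have h3 := goodU_spec hg (hq.mem_iff.1 List.mem_cons_self)
      (hq.mem_iff.1 (List.mem_cons_of_mem _ List.mem_cons_self)) hne hc h1 h2
    omega
  obtain ⟨rfl, rfl⟩ := heq
  have hkk : k' = k := hov.unique hk0
  subst hkk
  rw [hm]
  exact ((List.perm_cons _).1 ((List.perm_cons _).1 hq)).cons m

theorem chain_step {x y m : List ℕ} {R : List (List ℕ)} {k : ℕ} (hk1 : 1 ≤ k)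
    (hnd : (x :: y :: R).Nodup) (hky : k ≤ y.length) (hk : x.drop (x.length - k) = y.take k)
    (hxy : noOv k y x x.length = true) (hg : goodU (x :: y :: R) x y k = true)
    (hm : x.take (x.length - k) ++ y = m) {t : List ℕ} {P : Prop}
    (h : ∀ F : List (List ℕ), F.Perm (m :: R) → Relation.ReflTransGen Greedy.Step F [t] → P)
    (F : List (List ℕ)) (hF : F.Perm (x :: y :: R))
    (hr : Relation.ReflTransGen Greedy.Step F [t]) : P := by
  rcases hr.cases_head with h1 | ⟨F', h1, h2⟩
  · subst h1
    have := hF.length_eq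
    simp at this
  · exact h F' (step_unique hk1 hnd hky hk hxy hg hm hF h1) h2

/-- no nonempty overlap -/
def NoOv (z w : List ℕ) : Prop := ∀ u : List ℕ, u <:+ z → u <+: w → u = []

theorem noOv_append_left {x y w : List ℕ} (h1 : NoOv x w) (h2 : NoOv y w) : NoOv (x ++ y) w := by
  intro u hu hw
  obtain ⟨t, ht⟩ := hu
  rcases List.append_eq_append_iff.1 ht with ⟨a, h3, h4⟩ | ⟨c, h3, h4⟩
  · have h5 : a = [] := h1 a ⟨t, h3.symm⟩ ((List.prefix_append a y).trans (h4 ▸ hw))
    subst h5
    rw [List.nil_append] at h4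
    exact h2 u (by rw [h4]) hw
  · exact h2 u ⟨c, h4.symm⟩ hw

theorem noOv_append_right {x y w : List ℕ} (h1 : NoOv w x) (h2 : NoOv w y) : NoOv w (x ++ y) := by
  intro u hu hw
  obtain ⟨t, ht⟩ := hw
  rcases List.append_eq_append_iff.1 ht with ⟨a, h3, h4⟩ | ⟨c, h3, h4⟩
  · exact h1 u hu ⟨a, h3.symm⟩
  · have h5 : c = [] := h2 c ((List.suffix_append x c).trans (h3 ▸ hu)) ⟨t, h4.symm⟩
    subst h5
    rw [List.append_nil] at h3
    exact h1 u hu (by rw [h3])

/-- no nonempty overlaps inside the family -/
def Zero (F : List (List ℕ)) : Prop := F.Pairwise fun z w => NoOv z w ∧ NoOv w z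

theorem Zero.perm {F L : List (List ℕ)} (h : Zero L) (hF : F.Perm L) : Zero F :=
  (hF.pairwise_iff (fun {_ _} h => ⟨h.2, h.1⟩)).2 h

/-- total length -/
def total (F : List (List ℕ)) : ℕ := (F.map List.length).sum

theorem total_perm {F L : List (List ℕ)} (hF : F.Perm L) : total F = total L :=
  (hF.map List.length).sum_eq

theorem zero_step {F F' : List (List ℕ)} (h0 : Zero F) (h : Greedy.Step F F') :
    Zero F' ∧ total F' = total F := by
  obtain ⟨x, y, R, k, hp, hov, -, rfl⟩ := h
  have h1 := h0.perm hp.symm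
  unfold Zero at h1
  rw [List.pairwise_cons, List.pairwise_cons] at h1
  obtain ⟨h2, h3, h4⟩ := h1
  obtain ⟨u, hu, h5, h6⟩ := hov.1
  have h7 : u = [] := (h2 y List.mem_cons_self).1 u h5 h6
  have h8 : k = 0 := by
    rw [← hu, h7]
    rfl
  subst h8
  have h9 : x.take (x.length - 0) ++ y = x ++ y := by
    rw [Nat.sub_zero, List.take_length]
  rw [h9]
  constructor
  · unfold Zero
    rw [List.pairwise_cons]
    refine ⟨?_, h4⟩
    intro w hw
    have h10 := h2 w (List.mem_cons_of_mem _ hw)
    have h11 := h3 w hw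
    exact ⟨noOv_append_left h10.1 h11.1, noOv_append_right h10.2 h11.2⟩
  · rw [total_perm hp]
    unfold total
    simp only [List.map_cons, List.sum_cons, List.length_append]
    omega

theorem zero_end {F G : List (List ℕ)} (h0 : Zero F) (h : Relation.ReflTransGen Greedy.Step F G) :
    total G = total F := by
  have key : Zero G ∧ total G = total F := by
    induction h with
    | refl => exact ⟨h0, rfl⟩
    | tail _ h2 ih =>
        have h3 := zero_step ih.1 h2
        exact ⟨h3.1, h3.2.trans ih.2⟩
  exact key.2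

theorem zero_of_good {L : List (List ℕ)} (hnd : L.Nodup) (hg : good L 0 = true) : Zero L := by
  refine hnd.pairwise_of_forall_ne ?_
  intro z hz w hw hne
  constructor
  · intro u h1 h2
    exact List.length_eq_zero_iff.1 (Nat.le_zero.1 (good_spec hg hz hw hne h1 h2))
  · intro u h1 h2
    exact List.length_eq_zero_iff.1 (Nat.le_zero.1 (good_spec hg hw hz hne.symm h1 h2))

theorem chain_end {L : List (List ℕ)} {n : ℕ} (hnd : L.Nodup) (hg : good L 0 = true)
    (hn : total L = n) {t : List ℕ} (F : List (List ℕ)) (hF : F.Perm L)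
    (hr : Relation.ReflTransGen Greedy.Step F [t]) : t.length = n := by
  have h1 := zero_end ((zero_of_good hnd hg).perm hF) hr
  rw [total_perm hF, hn] at h1
  rw [← h1]
  simp [total]

end Vale.Agent.P333.H984.Chk
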