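import Vale.Agent.P333.H705.GrDefs

set_option autoImplicit false

/-!
P333: proper overlaps and the least weight of a cycle cover.
-/

namespace Vale.Agent.P333.H984

/-- `k` is the length of the longest proper overlap of `x` and `y`: the longest string shorter than
`x` and than `y` which is a suffix of `x` and a prefix of `y`. -/
def IsProperOverlap (x y : List ℕ) (k : ℕ) : Prop :=
  IsGreatest {k : ℕ | k < x.length ∧ k < y.length ∧
    ∃ w : List ℕ, w.length = k ∧ w <:+ x ∧ w <+: y} k

/-- `n` is the weight of a cycle cover of the family `S`: for a permutation `σ` of the positions of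
`S`, the sum of the lengths of the strings `S i` minus their proper overlaps with `S (σ i)`. -/
def IsCoverWeight (S : List (List ℕ)) (n : ℕ) : Prop :=
  ∃ (σ : Equiv.Perm (Fin S.length)) (k : Fin S.length → ℕ),
    (∀ i, IsProperOverlap (S.get i) (S.get (σ i)) (k i)) ∧ n = ∑ i, ((S.get i).length - k i)

/-- The least weight of a cycle cover. -/
noncomputable def cyc (S : List (List ℕ)) : ℕ := sInf {n : ℕ | IsCoverWeight S n}

end Vale.Agent.P333.H984
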